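import Mathlib

/-!
# The plane has a proper colouring with seven colours

Squares of side `1/√2`; the row `j` is shifted by `j/2` squares; the `i`-th square of the row `j`
has the colour `i + 3 j` modulo `7`.
-/

namespace Vale.Agent.P032.H999

/-- the core inequality: two points at distance `√2` (in units of the side) have different colours -/
theorem core {X Y X' Y' : ℝ} (h : (X - X') ^ 2 + (Y - Y') ^ 2 = 2)
    (hc : (((⌊X - (⌊Y⌋ : ℝ) / 2⌋ + 3 * ⌊Y⌋ : ℤ) : ZMod 7)) =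
      ((⌊X' - (⌊Y'⌋ : ℝ) / 2⌋ + 3 * ⌊Y'⌋ : ℤ) : ZMod 7)) : False := by
  wlog hle : ⌊Y⌋ ≤ ⌊Y'⌋ generalizing X Y X' Y'
  · exact this (by rw [← h]; ring) hc.symm (le_of_lt (not_le.1 hle))
  have hdvd := (ZMod.intCast_eq_intCast_iff_dvd_sub _ _ 7).1 hc
  have hY1 : (⌊Y⌋ : ℝ) ≤ Y := Int.floor_le Y
  have hY2 : Y < ⌊Y⌋ + 1 := Int.lt_floor_add_one Y
  have hY1' : (⌊Y'⌋ : ℝ) ≤ Y' := Int.floor_le Y'
  have hY2' : Y' < ⌊Y'⌋ + 1 := Int.lt_floor_add_one Y'
  have hX1 := Int.floor_le (X - (⌊Y⌋ : ℝ) / 2)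
  have hX2 := Int.lt_floor_add_one (X - (⌊Y⌋ : ℝ) / 2)
  have hX1' := Int.floor_le (X' - (⌊Y'⌋ : ℝ) / 2)
  have hX2' := Int.lt_floor_add_one (X' - (⌊Y'⌋ : ℝ) / 2)
  generalize ⌊X - (⌊Y⌋ : ℝ) / 2⌋ = i at *
  generalize ⌊X' - (⌊Y'⌋ : ℝ) / 2⌋ = i' at *
  generalize ⌊Y⌋ = j at *
  generalize ⌊Y'⌋ = j' at *
  obtain ⟨k, hk⟩ := hdvd
  obtain ⟨m, rfl⟩ : ∃ m : ℤ, j' = j + m := ⟨j' - j, by ring⟩
  obtain ⟨n, rfl⟩ : ∃ n : ℤ, i' = i + n := ⟨i' - i, by ring⟩
  push_cast at *
  have hm0 : 0 ≤ m := by omega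
  have hn : n = 7 * k - 3 * m := by linarith
  have hm2 : m ≤ 2 := by
    by_contra hcon
    have h3 : (3 : ℝ) ≤ m := by exact_mod_cast (by omega : (3 : ℤ) ≤ m)
    nlinarith [sq_nonneg (X - X')]
  subst hn
  push_cast at *
  interval_cases m
  · rcases lt_trichotomy k 0 with hk0 | hk0 | hk0
    · have h1 : (k : ℝ) ≤ -1 := by exact_mod_cast (by omega : k ≤ -1)
      push_cast at *
      nlinarith [sq_nonneg (Y - Y')]
    · subst hk0
      push_cast at *
      have h1 : |X - X'| < 1 := abs_lt.2 ⟨by linarith, by linarith⟩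
      have h2 : |Y - Y'| < 1 := abs_lt.2 ⟨by linarith, by linarith⟩
      have h3 := (sq_lt_one_iff_abs_lt_one (X - X')).2 h1
      have h4 := (sq_lt_one_iff_abs_lt_one (Y - Y')).2 h2
      linarith
    · have h1 : (1 : ℝ) ≤ k := by exact_mod_cast (by omega : 1 ≤ k)
      push_cast at *
      nlinarith [sq_nonneg (Y - Y')]
  · rcases le_or_gt k 0 with hk0 | hk0
    · have h1 : (k : ℝ) ≤ 0 := by exact_mod_cast hk0
      push_cast at *
      nlinarith [sq_nonneg (Y - Y')]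
    · have h1 : (1 : ℝ) ≤ k := by exact_mod_cast (by omega : 1 ≤ k)
      push_cast at *
      nlinarith [sq_nonneg (Y - Y')]
  · rcases le_or_gt k 0 with hk0 | hk0
    · have h1 : (k : ℝ) ≤ 0 := by exact_mod_cast hk0
      push_cast at *
      nlinarith [sq_nonneg (Y - Y')]
    · have h1 : (1 : ℝ) ≤ k := by exact_mod_cast (by omega : 1 ≤ k)
      push_cast at *
      nlinarith

/-- **The plane has a proper colouring with seven colours.** -/
theorem seven : ∃ c : EuclideanSpace ℝ (Fin 2) → Fin 7,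
    ∀ x y : EuclideanSpace ℝ (Fin 2), dist x y = 1 → c x ≠ c y := by
  refine ⟨fun x => ((⌊√2 * x 0 - (⌊√2 * x 1⌋ : ℝ) / 2⌋ + 3 * ⌊√2 * x 1⌋ : ℤ) : ZMod 7),
    fun x y h hc => ?_⟩
  refine core (X := √2 * x 0) (Y := √2 * x 1) (X' := √2 * y 0) (Y' := √2 * y 1) ?_ hc
  have h1 : dist x y ^ 2 = (x 0 - y 0) ^ 2 + (x 1 - y 1) ^ 2 := by
    rw [EuclideanSpace.dist_eq, Real.sq_sqrt (by positivity), Fin.sum_univ_two, Real.dist_eq,
      Real.dist_eq, sq_abs, sq_abs]
  have h2 : √2 ^ 2 = (2 : ℝ) := Real.sq_sqrt (by norm_num)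
  have h3 : (√2 * x 0 - √2 * y 0) ^ 2 + (√2 * x 1 - √2 * y 1) ^ 2 =
      √2 ^ 2 * ((x 0 - y 0) ^ 2 + (x 1 - y 1) ^ 2) := by ring
  rw [h3, h2, ← h1, h]
  norm_num

/-- a proper colouring with `k` colours -/
def HasCol (k : ℕ) : Prop :=
  ∃ c : EuclideanSpace ℝ (Fin 2) → Fin k,
    ∀ x y : EuclideanSpace ℝ (Fin 2), dist x y = 1 → c x ≠ c y

theorem HasCol.mono {k l : ℕ} (hkl : k ≤ l) (h : HasCol k) : HasCol l := by
  obtain ⟨c, hc⟩ := h
  exact ⟨fun x => Fin.castLE hkl (c x), fun x y hxy h => hc x y hxy (Fin.castLE_injective hkl h)⟩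

/-- If there is no proper colouring with six colours then a proper colouring with `k` colours exists
if and only if `7 ≤ k`. -/
theorem hasCol_iff_of_not_six (h6 : ¬ HasCol 6) (k : ℕ) : HasCol k ↔ 7 ≤ k := by
  constructor
  · intro h
    by_contra hcon
    exact h6 (h.mono (by omega))
  · intro h
    exact HasCol.mono h seven

/-- the unit distance graph of the plane -/
def unitDist : SimpleGraph (EuclideanSpace ℝ (Fin 2)) where
  Adj x y := dist x y = 1
  symm := ⟨fun x y h => by rw [dist_comm]; exact h⟩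
  loopless := ⟨fun x h => by simp at h⟩

theorem colorable_iff (k : ℕ) : unitDist.Colorable k ↔ HasCol k := by
  constructor
  · rintro ⟨C⟩
    exact ⟨fun x => C x, fun x y h => C.valid (show unitDist.Adj x y from h)⟩
  · rintro ⟨c, hc⟩
    exact ⟨SimpleGraph.Coloring.mk c fun {x y} h => hc x y h⟩

/-- **The chromatic number of the plane is at most seven.** -/
theorem chromaticNumber_le_seven : unitDist.chromaticNumber ≤ 7 :=
  ((colorable_iff 7).2 seven).chromaticNumber_le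

/-- If there is no proper colouring with six colours, the chromatic number of the plane is seven. -/
theorem chromaticNumber_eq_seven (h6 : ¬ HasCol 6) : unitDist.chromaticNumber = 7 := by
  refine le_antisymm chromaticNumber_le_seven ?_
  refine le_of_not_gt fun h => h6 ?_
  have h1 : unitDist.chromaticNumber ≤ 6 := by
    have h2 : (7 : ℕ∞) = 6 + 1 := by norm_num
    rw [h2] at h
    exact Order.le_of_lt_add_one h
  exact (colorable_iff 6).1 (SimpleGraph.chromaticNumber_le_iff_colorable.1 (by exact_mod_cast h1))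

end Vale.Agent.P032.H999
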